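import Mathlib

/-!
# P129 — separable quotients: Banach spaces with a complemented separable subspace

A Banach space `X` (real or complex) has a *separable infinite-dimensional quotient* if there is a
closed subspace `M` with `X ⧸ M` separable and infinite-dimensional.  This file proves this for the
restricted class of spaces carrying a bounded linear projection whose range is separable and
infinite-dimensional, and derives it for every infinite-dimensional Hilbert space and for every
product `X × Y` with `Y` separable infinite-dimensional (`X` arbitrary).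
-/

namespace Vale.Agent.Results.P129.A_ComplementedSeparable

open TopologicalSpace

universe u v

/-- A normed space `X` over `𝕜` has a *separable infinite-dimensional quotient*: there is a closed
linear subspace `M` of `X` such that the quotient `X ⧸ M` is separable and is not
finite-dimensional. -/
def HasSeparableQuotient (𝕜 : Type) [RCLike 𝕜] (X : Type u) [NormedAddCommGroup X]
    [NormedSpace 𝕜 X] : Prop :=
  ∃ M : Submodule 𝕜 X, IsClosed (M : Set X) ∧ SeparableSpace (X ⧸ M) ∧
    ¬ FiniteDimensional 𝕜 (X ⧸ M)

/-- If `P` is a bounded linear projection on `X` whose range is separable and infinite-dimensional,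
then `X ⧸ ker P` is separable and infinite-dimensional. -/
theorem of_projection {𝕜 : Type} [RCLike 𝕜] {X : Type u} [NormedAddCommGroup X] [NormedSpace 𝕜 X]
    (P : X →L[𝕜] X) (hP : ∀ x, P (P x) = P x) (hsep : IsSeparable (Set.range P))
    (hinf : ¬ FiniteDimensional 𝕜 (LinearMap.range (P : X →ₗ[𝕜] X))) :
    HasSeparableQuotient 𝕜 X := by
  classical
  refine ⟨LinearMap.ker (P : X →ₗ[𝕜] X), P.isClosed_ker, ?_, ?_⟩
  · have hcont : Continuous
        (Submodule.Quotient.mk : X → X ⧸ LinearMap.ker (P : X →ₗ[𝕜] X)) :=
      continuous_quot_mk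
    have himg := hsep.image hcont
    have huniv : (Submodule.Quotient.mk : X → X ⧸ LinearMap.ker (P : X →ₗ[𝕜] X)) ''
        Set.range P = Set.univ := by
      apply Set.eq_univ_of_forall
      intro q
      obtain ⟨x, rfl⟩ := Submodule.Quotient.mk_surjective _ q
      refine ⟨P x, ⟨x, rfl⟩, ?_⟩
      rw [Submodule.Quotient.eq]
      simp [LinearMap.mem_ker, hP]
    rw [huniv] at himg
    exact isSeparable_univ_iff.mp himg
  · intro hfd
    apply hinf
    have hr : LinearMap.range ((LinearMap.ker (P : X →ₗ[𝕜] X)).liftQ (P : X →ₗ[𝕜] X) le_rfl)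
        = LinearMap.range (P : X →ₗ[𝕜] X) := Submodule.range_liftQ _ _ _
    rw [← hr]
    infer_instance

/-- Every infinite-dimensional Hilbert space has a separable infinite-dimensional quotient. -/
theorem hilbert {𝕜 : Type} [RCLike 𝕜] {H : Type u} [NormedAddCommGroup H] [InnerProductSpace 𝕜 H]
    [CompleteSpace H] (hH : ¬ FiniteDimensional 𝕜 H) :
    HasSeparableQuotient 𝕜 H := by
  classical
  let b := Module.Basis.ofVectorSpace 𝕜 H
  have hinfI : Infinite (Module.Basis.ofVectorSpaceIndex 𝕜 H) := by
    by_contra h
    rw [not_infinite_iff_finite] at h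
    exact hH (Module.Finite.of_basis b)
  let e : ℕ ↪ Module.Basis.ofVectorSpaceIndex 𝕜 H := Infinite.natEmbedding _
  let f : ℕ → H := fun n => b (e n)
  have hf : LinearIndependent 𝕜 f := b.linearIndependent.comp e e.injective
  let K : Submodule 𝕜 H := (Submodule.span 𝕜 (Set.range f)).topologicalClosure
  have hKc : IsClosed (K : Set H) := Submodule.isClosed_topologicalClosure _
  have : CompleteSpace K := hKc.completeSpace_coe
  have hsepK : IsSeparable (K : Set H) := by
    have h1 : IsSeparable (Set.range f) := (Set.countable_range f).isSeparable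
    have h2 := (h1.span (R := 𝕜)).closure
    simpa [K, Submodule.topologicalClosure_coe] using h2
  have hKinf : ¬ FiniteDimensional 𝕜 K := by
    intro hfd
    let g : ℕ → K := fun n =>
      ⟨f n, Submodule.le_topologicalClosure _ (Submodule.subset_span ⟨n, rfl⟩)⟩
    have hg : LinearIndependent 𝕜 g := by
      apply LinearIndependent.of_comp K.subtype
      exact hf
    have := hg.finite
    exact not_finite ℕ
  have hrange : LinearMap.range (K.starProjection : H →ₗ[𝕜] H) = K := K.range_starProjection
  apply of_projection K.starProjection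
  · intro x
    exact congrArg (fun T : H →L[𝕜] H => T x) K.isIdempotentElem_starProjection
  · have hsub : Set.range K.starProjection ⊆ (K : Set H) := by
      rintro _ ⟨y, rfl⟩
      have h := LinearMap.mem_range_self (K.starProjection : H →ₗ[𝕜] H) y
      rw [hrange] at h
      exact h
    exact hsepK.mono hsub
  · rw [hrange]; exact hKinf

/-- For every normed space `X` and every separable infinite-dimensional normed space `Y`, the
product `X × Y` has a separable infinite-dimensional quotient. -/
theorem prod {𝕜 : Type} [RCLike 𝕜] {X : Type u} [NormedAddCommGroup X] [NormedSpace 𝕜 X]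
    {Y : Type v} [NormedAddCommGroup Y] [NormedSpace 𝕜 Y] [SeparableSpace Y]
    (hY : ¬ FiniteDimensional 𝕜 Y) :
    HasSeparableQuotient 𝕜 (X × Y) := by
  classical
  let P : (X × Y) →L[𝕜] (X × Y) :=
    (ContinuousLinearMap.inr 𝕜 X Y).comp (ContinuousLinearMap.snd 𝕜 X Y)
  apply of_projection P
  · intro x; simp [P]
  · have h1 : IsSeparable (Set.range (ContinuousLinearMap.inr 𝕜 X Y)) :=
      isSeparable_range (ContinuousLinearMap.inr 𝕜 X Y).continuous
    refine h1.mono ?_
    rintro _ ⟨x, rfl⟩
    exact ⟨x.2, by simp [P]⟩
  · intro hfd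
    apply hY
    let j : Y →ₗ[𝕜] LinearMap.range (P : (X × Y) →ₗ[𝕜] (X × Y)) :=
      LinearMap.codRestrict _ (LinearMap.inr 𝕜 X Y) (fun y => ⟨((0 : X), y), by simp [P]⟩)
    have hj : Function.Injective j := by
      intro y1 y2 h
      have h2 : ((j y1 : X × Y)).2 = ((j y2 : X × Y)).2 := by rw [h]
      exact h2
    exact FiniteDimensional.of_injective j hj

/-- **Hand-in.** (1) A Banach space with a bounded linear projection whose range is separable and
infinite-dimensional has a separable infinite-dimensional quotient.  (2) Every infinite-dimensional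
Hilbert space has one.  (3) So does `X × Y` for every Banach space `X` and every separable
infinite-dimensional Banach space `Y`. -/
theorem result :
    (∀ (𝕜 : Type) [RCLike 𝕜] (X : Type u) [NormedAddCommGroup X] [NormedSpace 𝕜 X]
        [CompleteSpace X] (P : X →L[𝕜] X), (∀ x, P (P x) = P x) →
        IsSeparable (Set.range P) →
        ¬ FiniteDimensional 𝕜 (LinearMap.range (P : X →ₗ[𝕜] X)) →
        HasSeparableQuotient 𝕜 X) ∧
    (∀ (𝕜 : Type) [RCLike 𝕜] (H : Type u) [NormedAddCommGroup H] [InnerProductSpace 𝕜 H]
        [CompleteSpace H], ¬ FiniteDimensional 𝕜 H → HasSeparableQuotient 𝕜 H) ∧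
    (∀ (𝕜 : Type) [RCLike 𝕜] (X : Type u) [NormedAddCommGroup X] [NormedSpace 𝕜 X]
        [CompleteSpace X] (Y : Type v) [NormedAddCommGroup Y] [NormedSpace 𝕜 Y] [CompleteSpace Y]
        [SeparableSpace Y], ¬ FiniteDimensional 𝕜 Y → HasSeparableQuotient 𝕜 (X × Y)) :=
  ⟨fun _ _ _ _ _ _ P hP hsep hinf => of_projection P hP hsep hinf,
   fun _ _ _ _ _ _ hH => hilbert hH,
   fun _ _ _ _ _ _ _ _ _ _ _ hY => prod hY⟩

end Vale.Agent.Results.P129.A_ComplementedSeparable
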