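import Mathlib

namespace Vale.Agent.Results.P129.B_ContinuousFunctions

open Filter Topology Set BoundedContinuousFunction

section aux

variable {T : Type*} [TopologicalSpace T] [T2Space T] [NormalSpace T]

/-- the subspace of bounded continuous functions vanishing at every term of the sequence -/
def vanishing (x : ℕ → T) : Submodule ℝ (T →ᵇ ℝ) where
  carrier := {f | ∀ n, f (x n) = 0}
  add_mem' := by
    intro f g hf hg n
    have h1 : f (x n) = 0 := hf n
    have h2 : g (x n) = 0 := hg n
    simp [h1, h2]
  zero_mem' := by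
    intro n
    simp
  smul_mem' := by
    intro c f hf n
    have h1 : f (x n) = 0 := hf n
    simp [h1]

omit [T2Space T] [NormalSpace T] in
lemma mem_vanishing (x : ℕ → T) (f : T →ᵇ ℝ) : f ∈ vanishing x ↔ ∀ n, f (x n) = 0 := Iff.rfl

omit [T2Space T] [NormalSpace T] in
lemma vanishing_closed (x : ℕ → T) : IsClosed (vanishing x : Set (T →ᵇ ℝ)) := by
  have h : (vanishing x : Set (T →ᵇ ℝ)) = ⋂ n, {f : T →ᵇ ℝ | f (x n) = 0} := by
    ext f
    simp [mem_vanishing]
  rw [h]
  exact isClosed_iInter fun n => isClosed_eq (continuous_eval_const (x := x n)) continuous_const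

/-- Urysohn bumps: a bounded continuous function equal to one at the `n`-th term of the
sequence and to zero at all other terms and at the limit. -/
lemma exists_bump (x : ℕ → T) (a : T) (hinj : Function.Injective x) (hne : ∀ n, x n ≠ a)
    (hlim : Tendsto x atTop (𝓝 a)) (n : ℕ) :
    ∃ φ : T →ᵇ ℝ, φ (x n) = 1 ∧ (∀ m, m ≠ n → φ (x m) = 0) ∧ φ a = 0 := by
  classical
  set s : ℕ → ℕ := fun m => if m < n then m else m + 1 with hs
  have hs_le : ∀ m, m ≤ s m := by
    intro m
    simp only [hs]
    split_ifs <;> omega
  have hs_ne : ∀ m, s m ≠ n := by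
    intro m
    simp only [hs]
    split_ifs <;> omega
  have hs_tend : Tendsto s atTop atTop := tendsto_atTop_mono hs_le tendsto_id
  have hcomp : IsCompact (insert a (range (x ∘ s))) := (hlim.comp hs_tend).isCompact_insert_range
  have hclosed : IsClosed (insert a (range (x ∘ s))) := hcomp.isClosed
  have hdisj : Disjoint (insert a (range (x ∘ s))) ({x n} : Set T) := by
    rw [Set.disjoint_singleton_right]
    intro hmem
    rcases hmem with h | ⟨m, hm⟩
    · exact hne n h
    · exact hs_ne m (hinj hm)
  obtain ⟨f, hf0, hf1, hf01⟩ :=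
    exists_continuous_zero_one_of_isClosed hclosed isClosed_singleton hdisj
  refine ⟨BoundedContinuousFunction.ofNormedAddCommGroup f f.continuous 1 ?_, ?_, ?_, ?_⟩
  · intro t
    rw [Real.norm_eq_abs, abs_le]
    constructor <;> linarith [(hf01 t).1, (hf01 t).2]
  · exact hf1 rfl
  · intro m hm
    have hmem : x m ∈ insert a (range (x ∘ s)) := by
      right
      rcases lt_or_gt_of_ne hm with h | h
      · exact ⟨m, by simp [hs, h]⟩
      · refine ⟨m - 1, ?_⟩
        have h1 : ¬ (m - 1 < n) := by omega
        have h2 : m - 1 + 1 = m := by omega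
        simp [hs, h1, h2]
    exact hf0 hmem
  · exact hf0 (mem_insert _ _)

end aux

/-- Let `T` be a normal Hausdorff space containing a nontrivial convergent sequence: pairwise
distinct points `x n`, all different from `a`, with `x n → a`. Then the Banach space of bounded
continuous real functions on `T` with the supremum norm has a closed subspace `M` such that
the quotient by `M` is separable and infinite-dimensional. -/
theorem result {T : Type*} [TopologicalSpace T] [T2Space T] [NormalSpace T]
    (x : ℕ → T) (a : T) (hinj : Function.Injective x) (hne : ∀ n, x n ≠ a)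
    (hlim : Tendsto x atTop (𝓝 a)) :
    ∃ M : Submodule ℝ (T →ᵇ ℝ), IsClosed (M : Set (T →ᵇ ℝ)) ∧
      TopologicalSpace.SeparableSpace ((T →ᵇ ℝ) ⧸ M) ∧
      ¬ FiniteDimensional ℝ ((T →ᵇ ℝ) ⧸ M) := by
  classical
  choose φ hφ1 hφ0 hφa using exists_bump x a hinj hne hlim
  have hφ : ∀ n m, φ n (x m) = if m = n then 1 else 0 := by
    intro n m
    split_ifs with h
    · rw [h]; exact hφ1 n
    · exact hφ0 n m h
  set M := vanishing x with hM
  refine ⟨M, vanishing_closed x, ?_, ?_⟩
  · -- separability
    set G : Set ((T →ᵇ ℝ) ⧸ M) :=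
      insert (Submodule.Quotient.mk (1 : T →ᵇ ℝ)) (range fun n => Submodule.Quotient.mk (φ n))
      with hG
    have hGsep : TopologicalSpace.IsSeparable G :=
      ((countable_range _).insert _).isSeparable
    have hspan : TopologicalSpace.IsSeparable (Submodule.span ℝ G : Set ((T →ᵇ ℝ) ⧸ M)) :=
      hGsep.span
    have hdense : closure (Submodule.span ℝ G : Set ((T →ᵇ ℝ) ⧸ M)) = univ := by
      rw [eq_univ_iff_forall]
      intro q
      obtain ⟨f, rfl⟩ := Submodule.Quotient.mk_surjective M q
      refine (Metric.mem_closure_iff (α := (T →ᵇ ℝ) ⧸ M)).2 fun ε hε => ?_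
      have htend : Tendsto (fun m => f (x m)) atTop (𝓝 (f a)) :=
        (f.continuous.tendsto a).comp hlim
      obtain ⟨N, hN⟩ := Metric.tendsto_atTop.1 htend (ε / 2) (half_pos hε)
      set g : T →ᵇ ℝ := f a • (1 : T →ᵇ ℝ) + ∑ n ∈ Finset.range N, (f (x n) - f a) • φ n with hg
      have hgval : ∀ t, g t = f a + ∑ n ∈ Finset.range N, (f (x n) - f a) * φ n t := by
        intro t
        have h1 : g t = evalCLM ℝ t g := rfl
        rw [h1, hg, map_add, map_smul, map_sum]
        simp
      have hg_mem : (Submodule.Quotient.mk g : (T →ᵇ ℝ) ⧸ M) ∈ Submodule.span ℝ G := by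
        have h2 : (Submodule.Quotient.mk g : (T →ᵇ ℝ) ⧸ M) =
            f a • Submodule.Quotient.mk (1 : T →ᵇ ℝ) +
              ∑ n ∈ Finset.range N, (f (x n) - f a) • Submodule.Quotient.mk (φ n) := by
          have h3 : (Submodule.Quotient.mk g : (T →ᵇ ℝ) ⧸ M) = M.mkQ g := rfl
          rw [h3, hg, map_add, map_smul, map_sum]
          simp
        rw [h2]
        refine Submodule.add_mem _ (Submodule.smul_mem _ _ (Submodule.subset_span ?_))
          (Submodule.sum_mem _ fun n _ => Submodule.smul_mem _ _ (Submodule.subset_span ?_))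
        · exact mem_insert _ _
        · exact mem_insert_of_mem _ ⟨n, rfl⟩
      refine ⟨Submodule.Quotient.mk g, hg_mem, ?_⟩
      -- the difference
      set d : T →ᵇ ℝ := f - g with hd
      have hd_a : d a = 0 := by
        have : d a = f a - g a := rfl
        rw [this, hgval]
        have : ∑ n ∈ Finset.range N, (f (x n) - f a) * φ n a = 0 :=
          Finset.sum_eq_zero fun n _ => by rw [hφa n, mul_zero]
        rw [this]; ring
      have hd_lt : ∀ m, m < N → d (x m) = 0 := by
        intro m hm
        have : d (x m) = f (x m) - g (x m) := rfl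
        rw [this, hgval]
        have : ∑ n ∈ Finset.range N, (f (x n) - f a) * φ n (x m) = f (x m) - f a := by
          rw [Finset.sum_eq_single m]
          · rw [hφ m m, if_pos rfl, mul_one]
          · intro n _ hnm
            rw [hφ n m, if_neg (Ne.symm hnm), mul_zero]
          · intro h
            exact absurd (Finset.mem_range.2 hm) h
        rw [this]; ring
      have hd_ge : ∀ m, N ≤ m → d (x m) = f (x m) - f a := by
        intro m hm
        have : d (x m) = f (x m) - g (x m) := rfl
        rw [this, hgval]
        have : ∑ n ∈ Finset.range N, (f (x n) - f a) * φ n (x m) = 0 := by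
          refine Finset.sum_eq_zero fun n hn => ?_
          have hnm : m ≠ n := by
            have := Finset.mem_range.1 hn
            omega
          rw [hφ n m, if_neg hnm, mul_zero]
        rw [this]; ring
      have hS : IsClosed (insert a (range x)) := hlim.isCompact_insert_range.isClosed
      have hbound : ‖d.domRestrict (insert a (range x))‖ ≤ ε / 2 := by
        rw [BoundedContinuousFunction.norm_le (half_pos hε).le]
        rintro ⟨y, hy⟩
        have hval : (d.domRestrict (insert a (range x))) ⟨y, hy⟩ = d y := rfl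
        rw [hval, Real.norm_eq_abs]
        rcases hy with rfl | ⟨m, rfl⟩
        · rw [hd_a, abs_zero]; exact (half_pos hε).le
        · rcases lt_or_ge m N with h | h
          · rw [hd_lt m h, abs_zero]; exact (half_pos hε).le
          · rw [hd_ge m h]
            have := hN m h
            rw [Real.dist_eq] at this
            exact this.le
      obtain ⟨u, hu_norm, hu_restr⟩ :=
        exists_norm_eq_domRestrict_eq_of_closed (d.domRestrict (insert a (range x))) hS
      have hu_eq : ∀ n, u (x n) = d (x n) := by
        intro n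
        have := DFunLike.congr_fun hu_restr ⟨x n, mem_insert_of_mem _ ⟨n, rfl⟩⟩
        exact this
      have hmemM : d - u ∈ M := by
        rw [hM, mem_vanishing]
        intro n
        have : (d - u) (x n) = d (x n) - u (x n) := rfl
        rw [this, hu_eq n, sub_self]
      have hmk : (Submodule.Quotient.mk d : (T →ᵇ ℝ) ⧸ M) = Submodule.Quotient.mk u :=
        (Submodule.Quotient.eq M).2 hmemM
      have hdist : dist (Submodule.Quotient.mk f : (T →ᵇ ℝ) ⧸ M) (Submodule.Quotient.mk g)
          = ‖(Submodule.Quotient.mk u : (T →ᵇ ℝ) ⧸ M)‖ := by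
        rw [dist_eq_norm, ← Submodule.Quotient.mk_sub, ← hmk]
      rw [hdist]
      calc ‖(Submodule.Quotient.mk u : (T →ᵇ ℝ) ⧸ M)‖ ≤ ‖u‖ := Submodule.Quotient.norm_mk_le M u
        _ = ‖d.domRestrict (insert a (range x))‖ := hu_norm
        _ ≤ ε / 2 := hbound
        _ < ε := half_lt_self hε
    have huniv : TopologicalSpace.IsSeparable (univ : Set ((T →ᵇ ℝ) ⧸ M)) := by
      rw [← hdense]
      exact hspan.closure
    exact TopologicalSpace.isSeparable_univ_iff.1 huniv
  · -- infinite dimension
    intro hfin
    set k := Module.finrank ℝ ((T →ᵇ ℝ) ⧸ M) with hk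
    have hli : LinearIndependent ℝ
        (fun i : Fin (k + 1) => (Submodule.Quotient.mk (φ i) : (T →ᵇ ℝ) ⧸ M)) := by
      rw [Fintype.linearIndependent_iff]
      intro c hc j
      have h1 : (∑ i, c i • (Submodule.Quotient.mk (φ i) : (T →ᵇ ℝ) ⧸ M)) =
          Submodule.Quotient.mk (∑ i : Fin (k + 1), c i • φ i) := by
        have h3 : ∀ h : T →ᵇ ℝ, (Submodule.Quotient.mk h : (T →ᵇ ℝ) ⧸ M) = M.mkQ h :=
          fun _ => rfl
        rw [h3, map_sum]
        simp
      rw [h1, Submodule.Quotient.mk_eq_zero, hM, mem_vanishing] at hc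
      have h2 := hc j
      have h4 : (∑ i : Fin (k + 1), c i • φ i) (x j) =
          evalCLM ℝ (x j) (∑ i : Fin (k + 1), c i • φ i) := rfl
      rw [h4, map_sum] at h2
      have h5 : ∑ i : Fin (k + 1), evalCLM ℝ (x (j : ℕ)) (c i • φ i) = c j := by
        rw [Finset.sum_eq_single j]
        · rw [map_smul]
          have : evalCLM ℝ (x (j : ℕ)) (φ j) = φ j (x j) := rfl
          rw [this, hφ1, smul_eq_mul, mul_one]
        · intro i _ hij
          rw [map_smul]
          have : evalCLM ℝ (x (j : ℕ)) (φ i) = φ i (x j) := rfl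
          have hne' : (j : ℕ) ≠ (i : ℕ) := fun h => hij (Fin.ext h.symm)
          rw [this, hφ0 i j hne', smul_zero]
        · intro h
          exact absurd (Finset.mem_univ j) h
      rw [h5] at h2
      exact h2
    have hcard := hli.fintype_card_le_finrank
    rw [Fintype.card_fin] at hcard
    omega

end Vale.Agent.Results.P129.B_ContinuousFunctions
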