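import Mathlib

/-!
# P129 — the Saxon–Wilansky criterion for separable quotients

A normed space `X` has a separable infinite-dimensional quotient if and only if `X` is the closure
of the union of an increasing sequence of *proper* closed subspaces.

* (⇐) Let `F 0 ≤ F 1 ≤ ...` be proper closed subspaces with dense union.  By Hahn–Banach choose
  continuous functionals `g n ≠ 0` vanishing on `F n`, and put `M = ⋂ ker (g n)`.  The image of
  `F n` in `X ⧸ M` is finite-dimensional (it embeds in `𝕜 ^ n` through `g 0, ..., g (n-1)`, since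
  `g k` vanishes on `F n` for `k ≥ n`), so `X ⧸ M` is the closure of a countable union of
  finite-dimensional subspaces, hence separable.  If `X ⧸ M` were finite-dimensional, the images of
  the `F n` would stabilise at some `n`, that image would be dense and closed, so `X = F n + M`
  and `g n = 0`, a contradiction.
* (⇒) If `X ⧸ M` is separable and infinite-dimensional, take a dense sequence `d` in it and let
  `F n` be the preimage of the span of `d 0, ..., d (n-1)`.
-/

namespace Vale.Agent.Results.P129.C_IncreasingSubspaces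

open TopologicalSpace

universe u

/-- A normed space `X` over `𝕜` has a *separable infinite-dimensional quotient*: there is a closed
linear subspace `M` of `X` such that the quotient `X ⧸ M` is separable and is not
finite-dimensional. -/
def HasSeparableQuotient (𝕜 : Type) [RCLike 𝕜] (X : Type u) [NormedAddCommGroup X]
    [NormedSpace 𝕜 X] : Prop :=
  ∃ M : Submodule 𝕜 X, IsClosed (M : Set X) ∧ SeparableSpace (X ⧸ M) ∧
    ¬ FiniteDimensional 𝕜 (X ⧸ M)

/-- `X` is the closure of the union of an increasing sequence of proper closed subspaces. -/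
def HasProperExhaustion (𝕜 : Type) [RCLike 𝕜] (X : Type u) [NormedAddCommGroup X]
    [NormedSpace 𝕜 X] : Prop :=
  ∃ F : ℕ → Submodule 𝕜 X, Monotone F ∧ (∀ n, IsClosed (F n : Set X)) ∧ (∀ n, F n ≠ ⊤) ∧
    Dense (⋃ n, (F n : Set X))

section

variable {𝕜 : Type} [RCLike 𝕜] {X : Type u} [NormedAddCommGroup X] [NormedSpace 𝕜 X]

/-- Hahn–Banach: a proper closed subspace is annihilated by a nonzero continuous functional. -/
theorem exists_functional (p : Submodule 𝕜 X) (hp : IsClosed (p : Set X)) (hne : p ≠ ⊤) :
    ∃ g : X →L[𝕜] 𝕜, g ≠ 0 ∧ ∀ y ∈ p, g y = 0 := by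
  have : IsClosed (p : Set X) := hp
  obtain ⟨x, hx⟩ : ∃ x : X, x ∉ p := by
    by_contra h
    apply hne
    rw [eq_top_iff]
    intro x _
    by_contra hx
    exact h ⟨x, hx⟩
  have hx0 : (Submodule.Quotient.mk x : X ⧸ p) ≠ 0 := by
    rw [Ne, Submodule.Quotient.mk_eq_zero]
    exact hx
  have hn : ‖(Submodule.Quotient.mk x : X ⧸ p)‖ ≠ 0 := norm_ne_zero_iff.mpr hx0
  obtain ⟨g, -, hg⟩ := exists_dual_vector 𝕜 (Submodule.Quotient.mk x : X ⧸ p) hn
  refine ⟨g.comp p.mkQL, ?_, ?_⟩
  · intro h0
    have h1 : g (Submodule.Quotient.mk x : X ⧸ p) = 0 := by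
      have := congrArg (fun T : X →L[𝕜] 𝕜 => T x) h0
      simpa using this
    rw [hg] at h1
    exact hn (by exact_mod_cast h1)
  · intro y hy
    have : (Submodule.Quotient.mk y : X ⧸ p) = 0 := (Submodule.Quotient.mk_eq_zero p).mpr hy
    simp [this]

theorem of_exhaustion (h : HasProperExhaustion 𝕜 X) : HasSeparableQuotient 𝕜 X := by
  classical
  obtain ⟨F, hmono, hclosed, hproper, hdense⟩ := h
  choose g hg0 hgF using fun n => exists_functional (F n) (hclosed n) (hproper n)
  let M : Submodule 𝕜 X := ⨅ n, LinearMap.ker (g n : X →ₗ[𝕜] 𝕜)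
  have hMmem : ∀ x, x ∈ M ↔ ∀ n, g n x = 0 := by
    intro x
    simp [M]
  have hMclosed : IsClosed (M : Set X) := by
    have : (M : Set X) = ⋂ n, (LinearMap.ker (g n : X →ₗ[𝕜] 𝕜) : Set X) := by
      ext x
      simp [M]
    rw [this]
    exact isClosed_iInter fun n => (g n).isClosed_ker
  have : IsClosed (M : Set X) := hMclosed
  -- the images of the `F n`
  let W : ℕ → Submodule 𝕜 (X ⧸ M) := fun n => (F n).map M.mkQ
  have hWmono : Monotone W := fun a b hab => Submodule.map_mono (hmono hab)
  -- each `W n` is finite-dimensional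
  have hWfin : ∀ n, FiniteDimensional 𝕜 (W n) := by
    intro n
    let Ψ : X →ₗ[𝕜] (Fin n → 𝕜) := LinearMap.pi fun k => (g k : X →ₗ[𝕜] 𝕜)
    have hΨ : M ≤ LinearMap.ker Ψ := by
      intro x hx
      rw [LinearMap.mem_ker]
      ext k
      simpa [Ψ] using (hMmem x).mp hx k
    let Θ : (X ⧸ M) →ₗ[𝕜] (Fin n → 𝕜) := M.liftQ Ψ hΨ
    have hinj : Function.Injective (Θ.domRestrict (W n)) := by
      rw [injective_iff_map_eq_zero]
      rintro ⟨w, hw⟩ hw0
      obtain ⟨x, hxF, rfl⟩ := hw
      have hΨx : Ψ x = 0 := by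
        have : Θ (M.mkQ x) = 0 := hw0
        simpa [Θ] using this
      have hxM : x ∈ M := by
        rw [hMmem]
        intro k
        by_cases hk : k < n
        · have := congrFun hΨx ⟨k, hk⟩
          simpa [Ψ] using this
        · exact hgF k x (hmono (not_lt.mp hk) hxF)
      ext
      exact (Submodule.Quotient.mk_eq_zero M).mpr hxM
    exact Module.Finite.of_injective _ hinj
  -- the union of the `W n` is dense
  have hWdense : Dense (⋃ n, (W n : Set (X ⧸ M))) := by
    have hsurj : Function.Surjective (M.mkQ) := Submodule.mkQ_surjective M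
    have h1 : Dense ((M.mkQ) '' (⋃ n, (F n : Set X))) :=
      hsurj.denseRange.dense_image (M.mkQL).continuous hdense
    refine h1.mono ?_
    rintro _ ⟨x, hx, rfl⟩
    obtain ⟨n, hn⟩ := Set.mem_iUnion.mp hx
    exact Set.mem_iUnion.mpr ⟨n, ⟨x, hn, rfl⟩⟩
  refine ⟨M, hMclosed, ?_, ?_⟩
  · -- separable
    have hsep : ∀ n, IsSeparable (W n : Set (X ⧸ M)) := by
      intro n
      have := hWfin n
      have : ProperSpace (W n) := FiniteDimensional.proper_rclike 𝕜 (W n)
      have : IsSeparable (Set.range (Subtype.val : W n → X ⧸ M)) :=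
        isSeparable_range continuous_subtype_val
      simpa using this
    have h2 : IsSeparable (closure (⋃ n, (W n : Set (X ⧸ M)))) :=
      (IsSeparable.iUnion hsep).closure
    rw [hWdense.closure_eq] at h2
    exact isSeparable_univ_iff.mp h2
  · -- infinite-dimensional
    intro hfd
    obtain ⟨n, hn⟩ := monotone_stabilizes_iff_noetherian.mpr
      (inferInstance : IsNoetherian 𝕜 (X ⧸ M)) ⟨W, hWmono⟩
    have hUnion : (⋃ k, (W k : Set (X ⧸ M))) = (W n : Set (X ⧸ M)) := by
      apply Set.Subset.antisymm
      · intro q hq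
        obtain ⟨k, hk⟩ := Set.mem_iUnion.mp hq
        rcases le_total k n with hkn | hnk
        · exact hWmono hkn hk
        · have : W n = W k := hn k hnk
          rw [this]
          exact hk
      · exact Set.subset_iUnion (fun k => (W k : Set (X ⧸ M))) n
    have hWn_dense : Dense (W n : Set (X ⧸ M)) := by
      rw [← hUnion]; exact hWdense
    have := hWfin n
    have hWn_closed : IsClosed (W n : Set (X ⧸ M)) := (W n).closed_of_finiteDimensional
    have hWn_top : (W n : Set (X ⧸ M)) = Set.univ := by
      rw [← hWn_closed.closure_eq]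
      exact hWn_dense.closure_eq
    apply hg0 n
    ext x
    have hx : M.mkQ x ∈ (W n : Set (X ⧸ M)) := by rw [hWn_top]; exact Set.mem_univ _
    obtain ⟨y, hyF, hyx⟩ := hx
    have hxy : y - x ∈ M := by
      rw [← Submodule.Quotient.mk_eq_zero M, Submodule.Quotient.mk_sub]
      exact sub_eq_zero.mpr hyx
    have h1 : g n (y - x) = 0 := (hMmem _).mp hxy n
    have h2 : g n y = 0 := hgF n y hyF
    rw [map_sub, h2, zero_sub, neg_eq_zero] at h1
    simpa using h1

theorem to_exhaustion (h : HasSeparableQuotient 𝕜 X) : HasProperExhaustion 𝕜 X := by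
  classical
  obtain ⟨M, hMclosed, hsep, hinf⟩ := h
  have : IsClosed (M : Set X) := hMclosed
  have := hsep
  obtain ⟨d, hd⟩ := exists_dense_seq (X ⧸ M)
  let G : ℕ → Submodule 𝕜 (X ⧸ M) := fun n => Submodule.span 𝕜 (d '' {k | k < n})
  have hGmono : Monotone G := by
    intro a b hab
    apply Submodule.span_mono
    apply Set.image_mono
    intro k hk
    exact lt_of_lt_of_le hk hab
  have hGfin : ∀ n, FiniteDimensional 𝕜 (G n) := by
    intro n
    apply FiniteDimensional.span_of_finite
    exact (Set.finite_lt_nat n).image d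
  have hGclosed : ∀ n, IsClosed (G n : Set (X ⧸ M)) := by
    intro n
    have := hGfin n
    exact (G n).closed_of_finiteDimensional
  have hGproper : ∀ n, G n ≠ ⊤ := by
    intro n htop
    apply hinf
    have := hGfin n
    have e : (G n) ≃ₗ[𝕜] (X ⧸ M) := (LinearEquiv.ofEq _ _ htop).trans Submodule.topEquiv
    exact Module.Finite.equiv e
  have hGdense : Dense (⋃ n, (G n : Set (X ⧸ M))) := by
    refine hd.mono ?_
    rintro _ ⟨k, rfl⟩
    refine Set.mem_iUnion.mpr ⟨k + 1, Submodule.subset_span ⟨k, ?_, rfl⟩⟩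
    exact Nat.lt_succ_self k
  refine ⟨fun n => (G n).comap M.mkQ, ?_, ?_, ?_, ?_⟩
  · intro a b hab
    exact Submodule.comap_mono (hGmono hab)
  · intro n
    exact (hGclosed n).preimage (M.mkQL).continuous
  · intro n htop
    apply hGproper n
    rw [eq_top_iff]
    intro q _
    obtain ⟨x, rfl⟩ := Submodule.mkQ_surjective M q
    have htop' : (G n).comap M.mkQ = ⊤ := htop
    have : x ∈ (G n).comap M.mkQ := by rw [htop']; exact Submodule.mem_top
    exact this
  · have h1 : Dense ((M.mkQ) ⁻¹' (⋃ n, (G n : Set (X ⧸ M)))) :=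
      hGdense.preimage M.isOpenMap_mkQ
    refine h1.mono ?_
    intro x hx
    obtain ⟨n, hn⟩ := Set.mem_iUnion.mp hx
    exact Set.mem_iUnion.mpr ⟨n, hn⟩

end

/-- **Hand-in (Saxon–Wilansky criterion).** A Banach space over `ℝ` or `ℂ` has a separable
infinite-dimensional quotient if and only if it is the closure of the union of an increasing
sequence of proper closed subspaces. -/
theorem result (𝕜 : Type) [RCLike 𝕜] (X : Type u) [NormedAddCommGroup X] [NormedSpace 𝕜 X]
    [CompleteSpace X] : HasSeparableQuotient 𝕜 X ↔ HasProperExhaustion 𝕜 X :=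
  ⟨to_exhaustion, of_exhaustion⟩

end Vale.Agent.Results.P129.C_IncreasingSubspaces
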