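import Mathlib
import Vale.Agent.Results.P129.C_IncreasingSubspaces

/-!
# P129 — Banach spaces with an infinite fundamental biorthogonal system

If a normed space `X` has an infinite biorthogonal system `(x i, f i)` (`f i (x i) = 1` and `f i (x j) = 0`
for `i ≠ j`, with the `f i` continuous) which is *fundamental* (the linear span of the `x i`
is dense), then `X` has a separable infinite-dimensional quotient.  This covers every space with a
Markushevich basis, in particular every space with a Schauder basis or with an unconditional basis
of any cardinality.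

Proof: choose distinct indices `e 0, e 1, ...` and let `F n` be the closed span of the `x i` with
`i ∉ {e n, e (n+1), ...}`.  The `F n` increase, `f (e n)` vanishes on `F n` but not at `x (e n)`,
and every `x i` lies in some `F n`; now apply the criterion of `C_IncreasingSubspaces`.
-/

namespace Vale.Agent.Results.P129.D_BiorthogonalSystems

open Vale.Agent.Results.P129.C_IncreasingSubspaces

universe u v

theorem of_biorthogonal {𝕜 : Type} [RCLike 𝕜] {X : Type u} [NormedAddCommGroup X]
    [NormedSpace 𝕜 X] {ι : Type v} [Infinite ι] (x : ι → X) (f : ι → X →L[𝕜] 𝕜)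
    (h1 : ∀ i, f i (x i) = 1) (h0 : ∀ i j, i ≠ j → f i (x j) = 0)
    (hfund : Dense (Submodule.span 𝕜 (Set.range x) : Set X)) :
    HasSeparableQuotient 𝕜 X := by
  classical
  apply of_exhaustion
  let e : ℕ ↪ ι := Infinite.natEmbedding ι
  let S : ℕ → Set X := fun n => {y | ∃ i, (∀ k, n ≤ k → e k ≠ i) ∧ y = x i}
  let F : ℕ → Submodule 𝕜 X := fun n => (Submodule.span 𝕜 (S n)).topologicalClosure
  have hSmono : ∀ a b, a ≤ b → S a ⊆ S b := by
    rintro a b hab _ ⟨i, hi, rfl⟩
    exact ⟨i, fun k hk => hi k (le_trans hab hk), rfl⟩
  have hFmono : Monotone F := fun a b hab =>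
    Submodule.topologicalClosure_mono (Submodule.span_mono (hSmono a b hab))
  refine ⟨F, hFmono, fun n => Submodule.isClosed_topologicalClosure _, ?_, ?_⟩
  · -- proper
    intro n htop
    have hker : F n ≤ LinearMap.ker (f (e n) : X →ₗ[𝕜] 𝕜) := by
      apply Submodule.topologicalClosure_minimal
      · apply Submodule.span_le.mpr
        rintro _ ⟨i, hi, rfl⟩
        have hne : e n ≠ i := hi n le_rfl
        change f (e n) (x i) = 0
        exact h0 (e n) i hne
      · exact (f (e n)).isClosed_ker
    have hmem : x (e n) ∈ F n := by rw [htop]; exact Submodule.mem_top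
    have hz : f (e n) (x (e n)) = 0 := hker hmem
    rw [h1] at hz
    exact one_ne_zero hz
  · -- dense union
    have hdir : Directed (· ≤ ·) F := hFmono.directed_le
    have hcoe : ((⨆ n, F n : Submodule 𝕜 X) : Set X) = ⋃ n, (F n : Set X) :=
      Submodule.coe_iSup_of_directed F hdir
    rw [← hcoe]
    refine hfund.mono ?_
    have hle : Submodule.span 𝕜 (Set.range x) ≤ ⨆ n, F n := by
      apply Submodule.span_le.mpr
      rintro _ ⟨i, rfl⟩
      by_cases hi : ∃ k, e k = i
      · obtain ⟨k, rfl⟩ := hi
        have : x (e k) ∈ F (k + 1) := by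
          apply Submodule.le_topologicalClosure
          apply Submodule.subset_span
          refine ⟨e k, fun m hm hmk => ?_, rfl⟩
          have : m = k := e.injective hmk
          omega
        exact (le_iSup F (k + 1)) this
      · have : x i ∈ F 0 := by
          apply Submodule.le_topologicalClosure
          apply Submodule.subset_span
          exact ⟨i, fun k _ hk => hi ⟨k, hk⟩, rfl⟩
        exact (le_iSup F 0) this
    exact hle

/-- **Hand-in.** A Banach space over `ℝ` or `ℂ` with an infinite fundamental biorthogonal system
has a separable infinite-dimensional quotient. -/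
theorem result (𝕜 : Type) [RCLike 𝕜] (X : Type u) [NormedAddCommGroup X] [NormedSpace 𝕜 X]
    [CompleteSpace X] (ι : Type v) [Infinite ι] (x : ι → X) (f : ι → X →L[𝕜] 𝕜)
    (h1 : ∀ i, f i (x i) = 1) (h0 : ∀ i j, i ≠ j → f i (x j) = 0)
    (hfund : Dense (Submodule.span 𝕜 (Set.range x) : Set X)) :
    HasSeparableQuotient 𝕜 X :=
  of_biorthogonal x f h1 h0 hfund

end Vale.Agent.Results.P129.D_BiorthogonalSystems
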